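import Vale.Agent.P197.Main

namespace Vale.Agent.Results.P197.Saxl

open Vale.Agent.P197

theorem result (m : ℕ) (_hm : 1 ≤ m) (ν : YoungDiagram) (hν : ν.card = m * (m + 1) / 2) :
    0 < kronecker (m * (m + 1) / 2) (staircase m) (staircase m) ν :=
  saxl m ν hν

end Vale.Agent.Results.P197.Saxl
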